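import Vale.Agent.P329.Final3

/-!
# Every language recognized by a finite nilpotent group of class at most three has generalized
star height at most one
-/

namespace Vale.Agent.Results.P329.NilpotentClassThree

/-- Over every finite alphabet `α`, every language recognized by a finite nilpotent group `G` of
nilpotency class at most three has generalized star height at most one. -/
theorem result (α : Type) [Finite α] (G : Type) [Group G] [Finite G] [Group.IsNilpotent G]
    (hG : Group.nilpotencyClass G ≤ 3) (φ : FreeMonoid α →* G) (S : Set G) :
    GSH329.HeightLE 1 {w : List α | φ (FreeMonoid.ofList w) ∈ S} :=
  GSH329.heightLE_of_central (GSH329.central_of_class_le_three G hG) φ S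

end Vale.Agent.Results.P329.NilpotentClassThree
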